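import Vale.Agent.P317.Final

/-! P317: common bases when one of the two matroids has girth (or cogirth) close to maximal. -/

namespace Vale.Agent.Results.P317.LargeGirth

open Vale.Agent.P317

theorem result {α : Type*} [Fintype α] [DecidableEq α] [Nonempty α] (M₁ M₂ : Matroid α)
    (hE1 : M₁.E = Set.univ) (hE2 : M₂.E = Set.univ) (r c : ℕ) (hc1 : 1 ≤ c)
    (hr1 : M₁.eRank = r) (hr2 : M₂.eRank = r) (hN : (common M₁ M₂).Nonempty)
    (hc : (∀ I : Finset α, I.card ≤ r - c → M₂.Indep I) ∨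
      (∀ I : Finset α, I.card ≤ (Fintype.card α - r) - c → M₂✶.Indep I)) :
    (∀ B ∈ bases M₁, ∃ T ∈ common M₁ M₂, (B \ T).card ≤ 2 * c - 1) ∧
    (bases M₁).card ≤ (∑ i ∈ Finset.range (2 * c - 1 + 1),
      r.choose i * (Fintype.card α - r).choose i) * (common M₁ M₂).card ∧
    (bases M₁).card ≤ 2 * c * Fintype.card α ^ (4 * c - 2) * (common M₁ M₂).card ∧
    ∀ (ε δ : ℝ), 0 < ε → 0 < δ → ∀ m : ℕ,
      (2 * c * (Fintype.card α : ℝ) ^ (4 * c - 2)) / (ε ^ 2 * δ) ≤ m →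
      ((Finset.univ.filter (fun x : Fin m → {B // B ∈ bases M₁} =>
        ε * (common M₁ M₂).card < |estimate M₁ M₂ m x - (common M₁ M₂).card|)).card : ℝ)
        ≤ δ * ((bases M₁).card : ℝ) ^ m := by
  obtain ⟨h1, h2⟩ := main M₁ M₂ hE1 hE2 r c hr1 hr2 hN hc
  have hn : 1 ≤ Fintype.card α := Fintype.card_pos
  have hrn : r ≤ Fintype.card α := by
    obtain ⟨T, hT⟩ := hN
    rw [mem_common] at hT
    have h3 := ncard_base M₁ r hr1 _ hT.1
    rw [Set.ncard_coe_finset] at h3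
    rw [← h3]; exact Finset.card_le_univ T
  refine ⟨h1, h2, h2.trans (Nat.mul_le_mul_right _ (sum_le _ r c hn hrn hc1)), ?_⟩
  intro ε δ hε hδ m hm
  exact sampling M₁ M₂ hE1 hE2 r c hc1 hr1 hr2 hn hN hc ε δ hε hδ m hm

end Vale.Agent.Results.P317.LargeGirth
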